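import Mathlib

/-!
# Two order lemmas for posets in which small chains have upper bounds
-/

namespace Vale.Agent.P323.H845

universe u v w

variable {P : Type u} [PartialOrder P]

/-- Small chains have upper bounds. -/
def SmallChains (P : Type u) [PartialOrder P] : Prop :=
  ∀ c : Set P, IsChain (· ≤ ·) c → Small.{v} c → ∃ r, ∀ x ∈ c, x ≤ r

/-- Stabilization: a monotone map into sets whose increasing unions are small generated is
constant above some point. -/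
theorem exists_stable {S : Type w} (hP : SmallChains.{u, v} P) (Φ : P → Set S) (q : P)
    (hΦ : ∀ r r', q ≤ r → r ≤ r' → Φ r ⊆ Φ r')
    (hgen : ∀ c : Set P, c.Nonempty → IsChain (· ≤ ·) c → (∀ r ∈ c, q ≤ r) →
      ∃ G : Set S, Small.{v} G ∧ (∀ g ∈ G, ∃ r ∈ c, g ∈ Φ r) ∧
        ∀ r ∈ c, G ⊆ Φ r → ∀ r' ∈ c, Φ r' ⊆ Φ r) :
    ∃ r, q ≤ r ∧ ∀ r', r ≤ r' → Φ r' = Φ r := by
  classical
  by_contra hcon
  push Not at hcon
  have hstep : ∀ r, q ≤ r → ∃ r', r ≤ r' ∧ Φ r ⊂ Φ r' := by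
    intro r hr
    obtain ⟨r', h1, h2⟩ := hcon r hr
    exact ⟨r', h1, (hΦ r r' hr h1).ssubset_of_ne (fun h => h2 h.symm)⟩
  let Q := {r : P // q ≤ r}
  let R : Q → Q → Prop := fun x y => x.1 ≤ y.1 ∧ Φ x.1 ⊂ Φ y.1
  have hmax : IsMaxChain R (maxChain R) := maxChain_spec
  set c : Set Q := maxChain R with hc
  have hcomp : ∀ x ∈ c, ∀ y ∈ c, x.1 ≤ y.1 ∨ y.1 ≤ x.1 := by
    intro x hx y hy
    by_cases hxy : x = y
    · exact Or.inl (hxy ▸ le_rfl)
    · rcases hmax.1 hx hy hxy with h | h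
      · exact Or.inl h.1
      · exact Or.inr h.1
  -- no upper bound
  have hnb : ∀ r : Q, ∃ x ∈ c, ¬ x.1 ≤ r.1 := by
    intro r
    by_contra hb
    push Not at hb
    obtain ⟨r', h1, h2⟩ := hstep r.1 r.2
    let r'' : Q := ⟨r', r.2.trans h1⟩
    have hR : ∀ x ∈ c, R x r'' := fun x hx =>
      ⟨(hb x hx).trans h1, ((hΦ _ _ x.2 (hb x hx)).trans_ssubset h2)⟩
    have hch : IsChain R (insert r'' c) := by
      apply hmax.1.insert
      intro b hb' _
      exact Or.inr (hR b hb')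
    have heq := hmax.2 hch (Set.subset_insert _ _)
    have hmem : r'' ∈ c := by
      rw [heq]
      exact Set.mem_insert _ _
    have := hb r'' hmem
    exact h2.2 (hΦ _ _ r''.2 this)
  obtain ⟨x0, hx0, -⟩ := hnb ⟨q, le_rfl⟩
  let c' : Set P := Subtype.val '' c
  have hc'chain : IsChain (· ≤ ·) c' := by
    rintro _ ⟨x, hx, rfl⟩ _ ⟨y, hy, rfl⟩ _
    exact hcomp x hx y hy
  obtain ⟨G, hGs, hG, hG'⟩ := hgen c' ⟨x0.1, x0, hx0, rfl⟩ hc'chain
    (by rintro _ ⟨x, hx, rfl⟩; exact x.2)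
  have : Nonempty P := ⟨q⟩
  choose! ρ hρ hρ' using hG
  let A : Set P := insert x0.1 (ρ '' G)
  have hAc : A ⊆ c' := by
    rintro a (rfl | ⟨g, hg, rfl⟩)
    · exact ⟨x0, hx0, rfl⟩
    · exact hρ g hg
  have hAs : Small.{v} A := by
    have : Small.{v} (ρ '' G) := small_image _ _
    exact small_insert _ _
  obtain ⟨r, hr⟩ := hP A (hc'chain.mono hAc) hAs
  have hqr : q ≤ r := x0.2.trans (hr _ (Set.mem_insert _ _))
  obtain ⟨c0, hc0, hc0'⟩ := hnb ⟨r, hqr⟩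
  have hA0 : ∀ a ∈ A, a ≤ c0.1 := by
    intro a ha
    obtain ⟨a', ha', rfl⟩ := hAc ha
    rcases hcomp a' ha' c0 hc0 with h | h
    · exact h
    · exact absurd (h.trans (hr _ ha)) hc0'
  have hGc0 : G ⊆ Φ c0.1 := by
    intro g hg
    have h1 : ρ g ∈ A := Set.mem_insert_of_mem _ ⟨g, hg, rfl⟩
    obtain ⟨a', ha', hae⟩ := hρ g hg
    have h2 : q ≤ ρ g := hae ▸ a'.2
    exact hΦ _ _ h2 (hA0 _ h1) (hρ' g hg)
  obtain ⟨c1, hc1, hc1'⟩ := hnb c0
  have hle := hG' c0.1 ⟨c0, hc0, rfl⟩ hGc0 c1.1 ⟨c1, hc1, rfl⟩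
  have hne : c0 ≠ c1 := by
    rintro rfl
    exact hc1' le_rfl
  rcases hmax.1 hc0 hc1 hne with h | h
  · exact h.2.2 hle
  · exact hc1' h.1

/-- Small families of dense upward closed sets have a common point above any given point. -/
theorem exists_meet {J : Type w} [Small.{v} J] (hP : SmallChains.{u, v} P) (q : P)
    (D : J → Set P) (hup : ∀ j r r', q ≤ r → r ≤ r' → r ∈ D j → r' ∈ D j)
    (hden : ∀ j r, q ≤ r → ∃ r', r ≤ r' ∧ r' ∈ D j) :
    ∃ r, q ≤ r ∧ ∀ j, r ∈ D j := by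
  classical
  let Q := {x : Set J × P // q ≤ x.2 ∧ ∀ j ∈ x.1, x.2 ∈ D j}
  let R : Q → Q → Prop := fun x y => x.1.1 ⊂ y.1.1 ∧ x.1.2 ≤ y.1.2
  have hmax : IsMaxChain R (maxChain R) := maxChain_spec
  set c : Set Q := maxChain R with hc
  have hcomp : ∀ x ∈ c, ∀ y ∈ c, x.1.2 ≤ y.1.2 ∨ y.1.2 ≤ x.1.2 := by
    intro x hx y hy
    by_cases hxy : x = y
    · exact Or.inl (hxy ▸ le_rfl)
    · rcases hmax.1 hx hy hxy with h | h
      · exact Or.inl h.2
      · exact Or.inr h.2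
  have hcs : Small.{v} c := by
    refine small_of_injective (β := Set J) (f := fun x : c => x.1.1.1) ?_
    rintro ⟨x, hx⟩ ⟨y, hy⟩ hxy
    by_contra hne
    have hne' : x ≠ y := fun h => hne (Subtype.ext h)
    rcases hmax.1 hx hy hne' with h | h
    · exact h.1.ne hxy
    · exact h.1.ne hxy.symm
  have hchain : IsChain (· ≤ ·) (insert q ((fun x : Q => x.1.2) '' c)) := by
    apply IsChain.insert
    · rintro _ ⟨x, hx, rfl⟩ _ ⟨y, hy, rfl⟩ _
      exact hcomp x hx y hy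
    · rintro _ ⟨x, hx, rfl⟩ _
      exact Or.inl x.2.1
  obtain ⟨r, hr⟩ := hP _ hchain (by
    have : Small.{v} ((fun x : Q => x.1.2) '' c) := small_image _ _
    exact small_insert _ _)
  have hqr : q ≤ r := hr _ (Set.mem_insert _ _)
  have hrc : ∀ x ∈ c, x.1.2 ≤ r := fun x hx => hr _ (Set.mem_insert_of_mem _ ⟨x, hx, rfl⟩)
  let U : Set J := {j | ∃ x ∈ c, j ∈ x.1.1}
  have hU : ∀ j ∈ U, r ∈ D j := by
    rintro j ⟨x, hx, hj⟩
    exact hup j _ _ x.2.1 (hrc x hx) (x.2.2 j hj)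
  by_cases hall : ∀ j, j ∈ U
  · exact ⟨r, hqr, fun j => hU j (hall j)⟩
  · exfalso
    push Not at hall
    obtain ⟨j, hj⟩ := hall
    obtain ⟨r', h1, h2⟩ := hden j r hqr
    let y : Q := ⟨(insert j U, r'), hqr.trans h1, by
      rintro j' (rfl | hj')
      · exact h2
      · exact hup j' _ _ hqr h1 (hU j' hj')⟩
    have hRy : ∀ x ∈ c, R x y := by
      intro x hx
      refine ⟨⟨fun j' hj' => Set.mem_insert_of_mem _ ⟨x, hx, hj'⟩, fun h => hj ⟨x, hx, ?_⟩⟩,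
        (hrc x hx).trans h1⟩
      exact h (Set.mem_insert _ _)
    have hch : IsChain R (insert y c) := by
      apply hmax.1.insert
      intro b hb' _
      exact Or.inr (hRy b hb')
    have heq := hmax.2 hch (Set.subset_insert _ _)
    have hmem : y ∈ c := by
      rw [heq]
      exact Set.mem_insert _ _
    exact hj ⟨y, hmem, Set.mem_insert _ _⟩

end Vale.Agent.P323.H845
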