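import Vale.Agent.P323.H845.Decision
import Vale.Agent.P323.H845.Chain
import Vale.Agent.P323.H811.FC

/-!
# Perfect colourings
-/

namespace Vale.Agent.P323.H845

open CategoryTheory Vale.Agent.P323.Z

variable {D : Type 1} [Category.{1} D]

/-- Union of a family of partial colourings. -/
noncomputable def colSup {x : D} (c : Set (Col x)) : Col x := by
  classical
  exact fun z => if h : ∃ p ∈ c, p z ≠ none then h.choose z else none

theorem colSup_ne_none {x : D} {c : Set (Col x)} {z : Dn x} :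
    colSup c z ≠ none ↔ ∃ p ∈ c, p z ≠ none := by
  classical
  constructor
  · intro h
    by_contra hcon
    exact h (by rw [colSup, dif_neg hcon])
  · intro h
    rw [colSup, dif_pos h]
    exact h.choose_spec.2

theorem le_colSup {x : D} {c : Set (Col x)} (hc : ∀ p ∈ c, ∀ q ∈ c, Col.Le p q ∨ Col.Le q p)
    {p : Col x} (hp : p ∈ c) : Col.Le p (colSup c) := by
  classical
  intro z k hz
  have h : ∃ p ∈ c, p z ≠ none := ⟨p, hp, by simp [hz]⟩
  rw [colSup, dif_pos h]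
  obtain ⟨h1, h2⟩ := h.choose_spec
  rcases hc p hp _ h1 with h3 | h3
  · exact h3 z k hz
  · obtain ⟨k', hk'⟩ := Option.ne_none_iff_exists'.1 h2
    have := h3 z k' hk'
    rw [hz] at this
    rw [hk', this]

theorem sm_colSup {x : D} {c : Set (Col x)} [Small.{0} c] (hc : ∀ p ∈ c, p.Sm) :
    (colSup c).Sm := by
  have h1 : ∀ p : c, Small.{0} {z | p.1 z ≠ none} := fun p => hc p.1 p.2
  have h2 : Small.{0} (⋃ p : c, {z | p.1 z ≠ none} : Set (Dn x)) := small_iUnion _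
  refine small_subset (s := (⋃ p : c, {z | p.1 z ≠ none} : Set (Dn x)))
    (t := {z | colSup c z ≠ none}) ?_
  intro z hz
  obtain ⟨p, hp, hpz⟩ := colSup_ne_none.1 hz
  exact Set.mem_iUnion.2 ⟨⟨p, hp⟩, hpz⟩

/-- Small partial colourings. -/
def SCol (x : D) : Type 1 := {p : Col x // p.Sm}

instance (x : D) : PartialOrder (SCol x) where
  le p q := Col.Le p.1 q.1
  le_refl p := Col.Le.refl _
  le_trans _ _ _ h h' := Col.Le.trans h h'
  le_antisymm _ _ h h' := Subtype.ext (col_le_antisymm h h')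

theorem smallChains_scol (x : D) : SmallChains.{1, 0} (SCol x) := by
  intro c hc hs
  have hs' : Small.{0} ((fun p : SCol x => p.1) '' c) := small_image _ _
  have hch : ∀ p ∈ ((fun p : SCol x => p.1) '' c), ∀ q ∈ ((fun p : SCol x => p.1) '' c),
      Col.Le p q ∨ Col.Le q p := by
    rintro _ ⟨p, hp, rfl⟩ _ ⟨q, hq, rfl⟩
    by_cases hpq : p = q
    · subst hpq
      exact Or.inl (Col.Le.refl _)
    · exact hc hp hq hpq
  refine ⟨⟨colSup ((fun p : SCol x => p.1) '' c), sm_colSup ?_⟩, ?_⟩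
  · rintro _ ⟨p, -, rfl⟩
    exact p.2
  · intro p hp
    exact le_colSup hch ⟨p, hp, rfl⟩

theorem exists_index [TwBase D] {x : D} (S : Set (Dn x)) [Small.{0} S] (i0 : Ordinal.{0}) :
    ∃ i, i0 < i ∧ ∀ z ∈ S, Mem i z.2 := by
  choose idx hidx using fun z : Dn x => TwBase.mem_ex z.2
  have h1 : Small.{0} (idx '' S) := small_image _ _
  obtain ⟨j, hj⟩ := Ordinal.bddAbove_of_small (s := idx '' S)
  refine ⟨Order.succ (max i0 j), Order.lt_succ_of_le (le_max_left _ _), fun z hz => ?_⟩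
  exact TwBase.mem_mono ((hj ⟨z, hz, rfl⟩).trans ((le_max_right _ _).trans (Order.le_succ _)))
    (hidx z)

theorem EE_mono {B : CObj D} (E : SEq B) {r r' : Col B.x} (h : Col.Le r r') {z : D}
    {s : z ⟶ B.x} (hs : E.EE r s) : E.EE r' s :=
  fun W e1 e2 h1 h2 h3 => hs W e1 e2 (h.trans h1) (h.trans h2) h3

theorem exists_step [Tw D] {B : CObj D} (E : SEq B) {r0 r : Col B.x} (h0 : Col.Le r0 r)
    (hr : r.Sm) (i : Ordinal.{0}) :
    ∃ r', Col.Le r r' ∧ r'.Sm ∧ (∀ (z : D) (w : z ⟶ B.x), Mem i w → r' ⟨z, w⟩ ≠ none) ∧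
      (∀ (d : D) (s t : d ⟶ B.x), Mem i s → Mem i t → E.EE r0 s → E.EE r0 t → Dec E r' s t) := by
  classical
  let J := {x : Σ d : D, (d ⟶ B.x) × (d ⟶ B.x) // Mem i x.2.1 ∧ Mem i x.2.2 ∧ E.EE r0 x.2.1 ∧
    E.EE r0 x.2.2}
  have hsm : Small.{0} {f : Σ x y : D, (x ⟶ y) // Mem i f.2.2} := TwBase.small i
  have hJ : Small.{0} J := by
    refine small_of_injective (β := {f : Σ x y : D, (x ⟶ y) // Mem i f.2.2} ×
      {f : Σ x y : D, (x ⟶ y) // Mem i f.2.2})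
      (f := fun x : J => (⟨⟨x.1.1, B.x, x.1.2.1⟩, x.2.1⟩, ⟨⟨x.1.1, B.x, x.1.2.2⟩, x.2.2.1⟩)) ?_
    rintro ⟨⟨d, s, t⟩, h⟩ ⟨⟨d', s', t'⟩, h'⟩ hxy
    simp only [Prod.mk.injEq, Subtype.mk.injEq, Sigma.mk.injEq] at hxy
    obtain ⟨⟨hd, hs⟩, ⟨-, ht⟩⟩ := hxy
    subst hd
    simp only [heq_eq_eq, Sigma.mk.injEq, true_and] at hs ht
    subst hs
    subst ht
    rfl
  obtain ⟨r1, hr1, hd⟩ := exists_meet (P := SCol B.x) (J := J) (smallChains_scol B.x) ⟨r, hr⟩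
    (fun j => {r' | Dec E r'.1 j.1.2.1 j.1.2.2})
    (fun j r r' _ h1 h2 => Dec.mono (r := r.1) (r' := r'.1) h1 h2)
    (fun j r' hr' => by
      obtain ⟨r'', h1, h2, h3⟩ := exists_dec E r'.2 (EE_mono E (h0.trans hr') j.2.2.2.1)
        (EE_mono E (h0.trans hr') j.2.2.2.2)
      exact ⟨⟨r'', h2⟩, h1, h3⟩)
  let f : Col B.x := fun z => if Mem i z.2 then some false else none
  have hf : f.Sm := by
    have hs : Small.{0} {z : Dn B.x // f z ≠ none} := by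
      refine small_of_injective (β := {f : Σ x y : D, (x ⟶ y) // Mem i f.2.2})
        (f := fun z : {z : Dn B.x // f z ≠ none} => ⟨⟨z.1.1, B.x, z.1.2⟩, by
          by_contra hcon
          exact z.2 (if_neg hcon)⟩) ?_
      rintro ⟨⟨d, s⟩, h⟩ ⟨⟨d', s'⟩, h'⟩ hxy
      simp only [Subtype.mk.injEq, Sigma.mk.injEq] at hxy
      obtain ⟨hd, hs⟩ := hxy
      subst hd
      simp only [heq_eq_eq, Sigma.mk.injEq, true_and] at hs
      subst hs
      rfl
    exact hs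
  refine ⟨Col.union r1.1 f, Col.Le.trans hr1 (col_le_union_left _ _), sm_union r1.2 hf, ?_, ?_⟩
  · intro z w hw
    have : f ⟨z, w⟩ = some false := if_pos hw
    cases hz : r1.1 ⟨z, w⟩ with
    | none => simp [Col.union, hz, this]
    | some c => simp [Col.union, hz]
  · intro d s t h1 h2 h3 h4
    exact Dec.mono (col_le_union_left _ _) (hd ⟨⟨d, s, t⟩, h1, h2, h3, h4⟩)

/-- Perfect colourings at the stage `i`. -/
structure Perfect [TwBase D] {B : CObj D} (E : SEq B) (i : Ordinal.{0}) (r : Col B.x) : Prop where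
  le : Col.Le B.p r
  sm : r.Sm
  obj : Mem i (𝟙 B.x)
  dom : ∀ {z : D} (w : z ⟶ B.x), r ⟨z, w⟩ ≠ none ↔ Mem i w
  stab : ∀ r', Col.Le r r' → r'.Sm → ∀ {z : D} (s : z ⟶ B.x), E.EE r' s ↔ E.EE r s
  gen : ∀ {z : D} (s : z ⟶ B.x), E.EE r s → ∃ (d : D) (e : d ⟶ B.x), Mem i e ∧ E.EE r e ∧ Thru e s
  dec : ∀ {d : D} (s t : d ⟶ B.x), Mem i s → Mem i t → E.EE r s → E.EE r t → Dec E r s t

/-- A stable colouring with a small generating family extends to a perfect one. -/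
theorem exists_perfect_of_stable [Tw D] {B : CObj D} (E : SEq B) (i0 : Ordinal.{0})
    {r0 : Col B.x} (hle : Col.Le B.p r0) (hsm : r0.Sm)
    (hstab : ∀ r, r.Sm → Col.Le r0 r → ∀ {z : D} (s : z ⟶ B.x), E.EE r s → E.EE r0 s)
    (hgen : ∃ i, ∀ {z : D} (s : z ⟶ B.x), E.EE r0 s →
      ∃ (d : D) (e : d ⟶ B.x), Mem i e ∧ E.EE r0 e ∧ Thru e s) :
    ∃ i, i0 ≤ i ∧ Order.IsSuccLimit i ∧ ∃ r, Col.Le r0 r ∧ Perfect E i r := by
  classical
  obtain ⟨ig, hgen⟩ := hgen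
  obtain ⟨io, hio⟩ := TwBase.mem_ex (𝟙 B.x)
  let T := {x : Ordinal.{0} × Col B.x // i0 ≤ x.1 ∧ ig ≤ x.1 ∧ io ≤ x.1 ∧ Col.Le r0 x.2 ∧ x.2.Sm ∧
    ∀ (z : D) (w : z ⟶ B.x), x.2 ⟨z, w⟩ ≠ none → Mem x.1 w}
  let Q : T → T → Prop := fun x y => x.1.1 < y.1.1 ∧ Col.Le x.1.2 y.1.2 ∧
    (∀ (z : D) (w : z ⟶ B.x), Mem x.1.1 w → y.1.2 ⟨z, w⟩ ≠ none) ∧
    (∀ (d : D) (s t : d ⟶ B.x), Mem x.1.1 s → Mem x.1.1 t → E.EE r0 s → E.EE r0 t →
      Dec E y.1.2 s t)
  have hnext : ∀ x : T, ∃ y : T, Q x y := by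
    rintro ⟨⟨i, r⟩, h1, h2, h3, h4, h5, h6⟩
    obtain ⟨r', g1, g2, g3, g4⟩ := exists_step E h4 h5 i
    have : Small.{0} {z | r' z ≠ none} := g2
    obtain ⟨j, hj, hj'⟩ := exists_index {z | r' z ≠ none} i
    exact ⟨⟨⟨j, r'⟩, h1.trans hj.le, h2.trans hj.le, h3.trans hj.le, h4.trans g1, g2,
      fun z w hw => hj' ⟨z, w⟩ hw⟩, hj, g1, g3, g4⟩
  choose next hnext using hnext
  have h0 : Small.{0} {z | r0 z ≠ none} := hsm
  obtain ⟨j0, hj0, hj0'⟩ := exists_index {z | r0 z ≠ none} (max i0 (max ig io))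
  let x0 : T := ⟨⟨j0, r0⟩, (le_max_left _ _).trans hj0.le,
    ((le_max_left _ _).trans (le_max_right _ _)).trans hj0.le,
    ((le_max_right _ _).trans (le_max_right _ _)).trans hj0.le, Col.Le.refl _, hsm,
    fun z w hw => hj0' ⟨z, w⟩ hw⟩
  let F : ℕ → T := fun n => next^[n] x0
  have hF : ∀ n, Q (F n) (F (n + 1)) := by
    intro n
    have : F (n + 1) = next (F n) := Function.iterate_succ_apply' next n x0
    rw [this]
    exact hnext _
  have hFi : StrictMono fun n => (F n).1.1 := strictMono_nat_of_lt_succ fun n => (hF n).1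
  have hFr : ∀ m n, m ≤ n → Col.Le (F m).1.2 (F n).1.2 := by
    intro m n hmn
    induction n, hmn using Nat.le_induction with
    | base => exact Col.Le.refl _
    | succ n _ ih => exact ih.trans (hF n).2.1
  let i : Ordinal.{0} := ⨆ n, (F n).1.1
  have hbdd : BddAbove (Set.range fun n => (F n).1.1) := Ordinal.bddAbove_of_small
  have hni : ∀ n, (F n).1.1 < i := fun n =>
    (hFi (Nat.lt_succ_self n)).trans_le (le_ciSup hbdd (n + 1))
  have hin : ∀ j, j < i → ∃ n, j < (F n).1.1 := fun j hj => exists_lt_of_lt_ciSup hj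
  have hlim : Order.IsSuccLimit i := by
    refine ⟨?_, ?_⟩
    · intro hmin
      exact absurd (hni 0) (not_lt.2 (hmin.isBot _))
    · refine Order.isSuccPrelimit_of_succ_lt fun j hj => ?_
      obtain ⟨n, hn⟩ := hin j hj
      exact (Order.succ_le_of_lt hn).trans_lt (hni n)
  have hmem : ∀ {z w : D} (f : z ⟶ w), Mem i f → ∃ n, Mem (F n).1.1 f := by
    intro z w f hf
    obtain ⟨j, hj, hj'⟩ := TwBase.mem_lim hlim hf
    obtain ⟨n, hn⟩ := hin j hj
    exact ⟨n, TwBase.mem_mono hn.le hj'⟩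
  have hmem' : ∀ n {z w : D} (f : z ⟶ w), Mem (F n).1.1 f → Mem i f := fun n _ _ f hf =>
    TwBase.mem_mono (hni n).le hf
  let c : Set (Col B.x) := Set.range fun n => (F n).1.2
  let r : Col B.x := colSup c
  have hchain : ∀ p ∈ c, ∀ q ∈ c, Col.Le p q ∨ Col.Le q p := by
    rintro _ ⟨m, rfl⟩ _ ⟨n, rfl⟩
    rcases le_total m n with h | h
    · exact Or.inl (hFr m n h)
    · exact Or.inr (hFr n m h)
  have hler : ∀ n, Col.Le (F n).1.2 r := fun n => le_colSup hchain ⟨n, rfl⟩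
  have hr0 : Col.Le r0 r := hler 0
  have hrsm : r.Sm := sm_colSup (by
    rintro _ ⟨n, rfl⟩
    exact (F n).2.2.2.2.2.1)
  refine ⟨i, (F 0).2.1.trans (hni 0).le, hlim, r, hr0, ⟨hle.trans hr0, hrsm,
    hmem' 0 _ (TwBase.mem_mono (F 0).2.2.2.1 hio), ?_, ?_, ?_, ?_⟩⟩
  · intro z w
    constructor
    · intro h
      obtain ⟨_, ⟨n, rfl⟩, hp⟩ := colSup_ne_none.1 h
      exact hmem' n w ((F n).2.2.2.2.2.2 z w hp)
    · intro h
      obtain ⟨n, hn⟩ := hmem w h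
      exact colSup_ne_none.2 ⟨_, ⟨n + 1, rfl⟩, (hF n).2.2.1 z w hn⟩
  · intro r' hrr' hr' z s
    exact ⟨fun h => EE_mono E hr0 (hstab r' hr' (hr0.trans hrr') s h), fun h => EE_mono E hrr' h⟩
  · intro z s hs
    obtain ⟨d, e, h1, h2, h3⟩ := hgen s (hstab r hrsm hr0 s hs)
    exact ⟨d, e, hmem' 0 e (TwBase.mem_mono (F 0).2.2.1 h1), EE_mono E hr0 h2, h3⟩
  · intro d s t h1 h2 h3 h4
    obtain ⟨m, hm⟩ := hmem s h1
    obtain ⟨n, hn⟩ := hmem t h2
    have hs : Mem (F (max m n)).1.1 s :=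
      TwBase.mem_mono (hFi.monotone (le_max_left m n)) hm
    have ht : Mem (F (max m n)).1.1 t :=
      TwBase.mem_mono (hFi.monotone (le_max_right m n)) hn
    exact Dec.mono (hler (max m n + 1)) ((hF (max m n)).2.2.2 d s t hs ht
      (hstab r hrsm hr0 s h3) (hstab r hrsm hr0 t h4))

theorem exists_gen [Tw D] {B : CObj D} (E : SEq B) {r : Col B.x} (hle : Col.Le B.p r)
    (hsm : r.Sm) : ∃ i, ∀ {z : D} (s : z ⟶ B.x), E.EE r s →
      ∃ (d : D) (e : d ⟶ B.x), Mem i e ∧ E.EE r e ∧ Thru e s := by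
  obtain ⟨i, -, hi⟩ := fc (b := B.x) (fun x f => E.EE r f)
    { one := SEq.EE.one r
      up := fun h h' => h'.up h
      inter := fun h h1 h2 => SEq.EE.inter hle hsm h1 h2 h }
  refine ⟨i, fun {z} s hs => ?_⟩
  obtain ⟨y, e, h1, h2, h3⟩ := hi s hs
  exact ⟨y, e, h2, h1, h3⟩

/-- Stabilization of `EE`. -/
theorem exists_stab [Tw D] {B : CObj D} (E : SEq B) (r1 : Col B.x) (h1 : Col.Le B.p r1)
    (hs1 : r1.Sm) : ∃ r0 : Col B.x, Col.Le r1 r0 ∧ r0.Sm ∧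
      ∀ r : Col B.x, Col.Le r0 r → r.Sm → ∀ {z : D} (s : z ⟶ B.x), E.EE r s → E.EE r0 s := by
  let Φ : SCol B.x → Set (Dn B.x) := fun r => {z | E.EE r.1 z.2}
  obtain ⟨r, hr, hr'⟩ := exists_stable (S := Dn B.x) (smallChains_scol B.x) Φ ⟨r1, hs1⟩
    (fun r r' _ h z hz => EE_mono E h hz) (by
      intro c hne hc hq
      have hcomp : ∀ r ∈ c, ∀ r' ∈ c, ∃ r'' ∈ c, r ≤ r'' ∧ r' ≤ r'' := by
        intro r hr r' hr'
        by_cases h : r = r'
        · exact ⟨r, hr, le_rfl, h ▸ le_rfl⟩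
        · rcases hc hr hr' h with h | h
          · exact ⟨r', hr', h, le_rfl⟩
          · exact ⟨r, hr, le_rfl, h⟩
      obtain ⟨i, -, hi⟩ := fc (b := B.x) (fun x f => ∃ r ∈ c, E.EE r.1 f)
        { one := by
            obtain ⟨r, hr⟩ := hne
            exact ⟨r, hr, SEq.EE.one r.1⟩
          up := by
            rintro x y f g hfg ⟨r, hr, h⟩
            exact ⟨r, hr, h.up hfg⟩
          inter := by
            rintro x y z f g p q hpb ⟨r, hr, h⟩ ⟨r', hr', h'⟩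
            obtain ⟨r'', hr'', h1', h2'⟩ := hcomp r hr r' hr'
            exact ⟨r'', hr'', SEq.EE.inter (h1.trans (hq r'' hr'')) r''.2
              (EE_mono E h1' h) (EE_mono E h2' h') hpb⟩ }
      refine ⟨{z | Mem i z.2 ∧ ∃ r ∈ c, E.EE r.1 z.2}, ?_, fun g hg => hg.2, ?_⟩
      · have := TwBase.small (D := D) i
        refine small_of_injective (β := {f : Σ x y : D, (x ⟶ y) // Mem i f.2.2})
          (f := fun z => ⟨⟨z.1.1, B.x, z.1.2⟩, z.2.1⟩) ?_
        rintro ⟨⟨z, f⟩, hz⟩ ⟨⟨z', f'⟩, hz'⟩ h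
        simp only [Subtype.mk.injEq, Sigma.mk.injEq] at h
        obtain ⟨rfl, h⟩ := h
        have h' := eq_of_heq h
        simp only [Sigma.mk.injEq, true_and] at h'
        have h'' := eq_of_heq h'
        subst h''
        rfl
      · intro r hr hG r' hr' z hz
        obtain ⟨y, e, he, hme, hth⟩ := hi z.2 ⟨r', hr', hz⟩
        exact SEq.EE.up (hG (show (⟨y, e⟩ : Dn B.x) ∈ _ from ⟨hme, he⟩)) hth)
  refine ⟨r.1, hr, r.2, fun r' h hs z s hE => ?_⟩
  have := hr' ⟨r', hs⟩ h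
  have h2 : (⟨z, s⟩ : Dn B.x) ∈ Φ ⟨r', hs⟩ := hE
  rw [this] at h2
  exact h2

/-- Existence of perfect colourings above any given small colouring. -/
theorem exists_perfect_above [Tw D] {B : CObj D} (E : SEq B) (i0 : Ordinal.{0}) (r1 : Col B.x)
    (hle : Col.Le B.p r1) (hsm : r1.Sm) :
    ∃ i, i0 ≤ i ∧ Order.IsSuccLimit i ∧ ∃ r, Col.Le r1 r ∧ Perfect E i r := by
  obtain ⟨r0, h0, hs0, hstab⟩ := exists_stab E r1 hle hsm
  obtain ⟨i, hi⟩ := exists_gen E (hle.trans h0) hs0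
  obtain ⟨j, h1, h2, r, h3, h4⟩ := exists_perfect_of_stable E i0 (hle.trans h0) hs0
    (fun r hr hr' _ s hs => hstab r hr' hr s hs) ⟨i, hi⟩
  exact ⟨j, h1, h2, r, h0.trans h3, h4⟩

theorem exists_perfect [Tw D] {B : CObj D} (E : SEq B) (i0 : Ordinal.{0}) :
    ∃ i, i0 ≤ i ∧ Order.IsSuccLimit i ∧ ∃ r, Perfect E i r := by
  obtain ⟨i, h1, h2, r, -, h3⟩ := exists_perfect_above E i0 B.p (Col.Le.refl _) B.sm
  exact ⟨i, h1, h2, r, h3⟩

end Vale.Agent.P323.H845
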