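import Vale.Agent.P323.Z9.EE

/-!
# The decision lemma
-/

namespace Vale.Agent.P323.H845

open CategoryTheory Vale.Agent.P323.Z

variable {D : Type 1} [Category.{1} D]

theorem col_le_antisymm {x : D} {p q : Col x} (h : Col.Le p q) (h' : Col.Le q p) : p = q := by
  funext z
  cases hp : p z with
  | some c => exact (h z c hp).symm
  | none =>
    cases hq : q z with
    | none => rfl
    | some c =>
      have := h' z c hq
      rw [hp] at this
      cases this

theorem col_le_union_left {x : D} (p q : Col x) : Col.Le p (Col.union p q) := by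
  intro z c h
  simp [Col.union, h]

theorem col_le_union_right {x : D} {p q : Col x} (h : Col.Compat p q) :
    Col.Le q (Col.union p q) := by
  intro z c hz
  cases hp : p z with
  | none => simp [Col.union, hp, hz]
  | some c' =>
    have := h z c' c hp hz
    subst this
    simp [Col.union, hp]

theorem col_union_le {x : D} {p q r : Col x} (hp : Col.Le p r) (hq : Col.Le q r) :
    Col.Le (Col.union p q) r := by
  intro z c hz
  cases hpz : p z with
  | none =>
    simp only [Col.union, hpz, Option.orElse_none] at hz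
    exact hq z c hz
  | some c' =>
    simp only [Col.union, hpz, Option.orElse_some] at hz
    exact hp z c (hpz.trans hz)

theorem compat_of_le {x : D} {p q r : Col x} (hp : Col.Le p r) (hq : Col.Le q r) :
    Col.Compat p q := by
  intro z c c' h h'
  have h1 := hp z c h
  have h2 := hq z c' h'
  rw [h1] at h2
  exact Option.some.inj h2

theorem sm_union {x : D} {p q : Col x} (hp : p.Sm) (hq : q.Sm) : (Col.union p q).Sm := by
  have h1 : Small.{0} {z | p z ≠ none} := hp
  have h2 : Small.{0} {z | q z ≠ none} := hq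
  have h3 : Small.{0} ({z | p z ≠ none} ∪ {z | q z ≠ none} : Set (Dn x)) := small_union _ _
  refine small_subset (s := {z | p z ≠ none} ∪ {z | q z ≠ none}) (t := {z | Col.union p q z ≠ none}) ?_
  intro z hz
  by_contra hcon
  simp only [Set.mem_union, Set.mem_ofPred_eq, not_or, not_not] at hcon
  exact hz (by simp [Col.union, hcon.1, hcon.2])

theorem sm_push [TwBase D] {x y : D} (u : x ⟶ y) {p : Col x} (hp : p.Sm) : (Col.push u p).Sm := by
  have h1 : Small.{0} {z | p z ≠ none} := hp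
  have h2 : Small.{0} (Dn.post u '' {z | p z ≠ none}) := small_image _ _
  refine small_subset (s := Dn.post u '' {z | p z ≠ none}) (t := {w | Col.push u p w ≠ none}) ?_
  intro w hw
  obtain ⟨c, hc⟩ := Option.ne_none_iff_exists'.1 hw
  obtain ⟨z, hz, hz'⟩ := (Col.push_eq_some u p w c).1 hc
  exact ⟨z, by simp [hz'], hz⟩

theorem sm_pull [TwBase D] {x y : D} (u : x ⟶ y) {p : Col y} (hp : p.Sm) : (Col.pull u p).Sm := by
  have h1 : Small.{0} {z // p z ≠ none} := hp
  exact small_of_injective (β := {z // p z ≠ none})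
    (f := fun z : {z // Col.pull u p z ≠ none} => ⟨Dn.post u z.1, z.2⟩)
    (fun a b hab => Subtype.ext (Dn.post_injective u (congrArg Subtype.val hab)))

theorem push_pull_le [TwBase D] {x y : D} (u : x ⟶ y) (p : Col y) :
    Col.Le (Col.push u (Col.pull u p)) p := by
  intro w c h
  obtain ⟨z, rfl, hz⟩ := (Col.push_eq_some u _ w c).1 h
  exact hz

theorem le_pull_of_push_le [TwBase D] {x y : D} (u : x ⟶ y) {p : Col x} {q : Col y}
    (h : Col.Le (Col.push u p) q) : Col.Le p (Col.pull u q) := by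
  intro z c hz
  exact h _ c ((Col.push_post u p z).trans hz)

theorem exists_cam_right [Tw D] {W V : CObj D} {d : D} (k : d ⟶ W.x) (l : d ⟶ V.x)
    (h : Col.Le (Col.pull k W.p) (Col.pull l V.p)) :
    ∃ (Z : CObj D) (f : W ⟶ Z) (g : V ⟶ Z), k ≫ f.u = l ≫ g.u ∧ Cons g := by
  obtain ⟨i, hk, hl⟩ := mem_two k l
  have hc := compat_of_le h (Col.Le.refl _)
  exact ⟨cam i W V k l hk hl, camL i W V k l hk hl, camR i W V k l hk hl hc, Tw.K0 i k l hk hl,
    cons_camR hk hl hc h⟩

/-- `s` and `t` are decided by `r`. -/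
def Dec {B : CObj D} (E : SEq B) (r : Col B.x) {d : D} (s t : d ⟶ B.x) : Prop :=
  (∀ (W : CObj D) (e1 e2 : B ⟶ W), Col.Le r (Col.pull e1.u W.p) → Col.Le r (Col.pull e2.u W.p) →
    s ≫ e1.u = t ≫ e2.u → E.rel e1 e2) ∨
  (∀ (W : CObj D) (e1 e2 : B ⟶ W), Col.Le r (Col.pull e1.u W.p) → Col.Le r (Col.pull e2.u W.p) →
    s ≫ e1.u = t ≫ e2.u → ¬ E.rel e1 e2)

theorem Dec.mono {B : CObj D} {E : SEq B} {r r' : Col B.x} (h : Col.Le r r') {d : D}
    {s t : d ⟶ B.x} (hd : Dec E r s t) : Dec E r' s t := by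
  rcases hd with hd | hd
  · exact Or.inl fun W e1 e2 h1 h2 h3 => hd W e1 e2 (h.trans h1) (h.trans h2) h3
  · exact Or.inr fun W e1 e2 h1 h2 h3 => hd W e1 e2 (h.trans h1) (h.trans h2) h3

/-- The decision lemma. -/
theorem exists_dec [Tw D] {B : CObj D} (E : SEq B) {r : Col B.x} (hr : r.Sm) {d : D}
    {s t : d ⟶ B.x} (hs : E.EE r s) (ht : E.EE r t) :
    ∃ r', Col.Le r r' ∧ r'.Sm ∧ Dec E r' s t := by
  by_cases hneg : ∀ (W : CObj D) (e1 e2 : B ⟶ W), Col.Le r (Col.pull e1.u W.p) →
      Col.Le r (Col.pull e2.u W.p) → s ≫ e1.u = t ≫ e2.u → ¬ E.rel e1 e2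
  · exact ⟨r, Col.Le.refl _, hr, Or.inr hneg⟩
  push Not at hneg
  obtain ⟨W, e1, e2, h1, h2, h3, h4⟩ := hneg
  have hk1 : Col.Le (Col.push s (Col.pull (s ≫ e1.u) W.p)) (Col.pull e1.u W.p) := by
    rw [Col.pull_comp]
    exact push_pull_le _ _
  refine ⟨Col.union r (Col.push s (Col.pull (s ≫ e1.u) W.p)), col_le_union_left _ _,
    sm_union hr (sm_push _ (sm_pull _ W.sm)), Or.inl ?_⟩
  intro W' e1' e2' h1' h2' h3'
  have hr1 : Col.Le r (Col.pull e1'.u W'.p) := (col_le_union_left _ _).trans h1'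
  have hr2 : Col.Le r (Col.pull e2'.u W'.p) := (col_le_union_left _ _).trans h2'
  have hle : Col.Le (Col.pull (s ≫ e1.u) W.p) (Col.pull (s ≫ e1'.u) W'.p) := by
    rw [Col.pull_comp s e1'.u]
    exact le_pull_of_push_le _ ((col_le_union_right (compat_of_le h1 hk1)).trans h1')
  obtain ⟨V, f, f', hff, hc⟩ := exists_cam_right _ _ hle
  refine SEq.lemmaC f' hc ?_
  have hup : ∀ {U : CObj D} {e : B ⟶ U} {q : U ⟶ V}, Col.Le r (Col.pull e.u U.p) →
      Col.Le r (Col.pull (e ≫ q).u V.p) := by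
    intro U e q he
    rw [comp_u, Col.pull_comp]
    exact he.trans (Col.Le.pull e.u (CHom.le q))
  have ha : E.rel (e1 ≫ f) (e1' ≫ f') := by
    refine hs V _ _ (hup h1) (hup hr1) ?_
    simpa only [comp_u, Category.assoc] using hff
  have hb : E.rel (e2 ≫ f) (e2' ≫ f') := by
    refine ht V _ _ (hup h2) (hup hr2) ?_
    rw [h3, h3'] at hff
    simpa only [comp_u, Category.assoc] using hff
  exact E.trans (E.symm ha) (E.trans (E.mono f h4) hb)

end Vale.Agent.P323.H845
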